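import Vale.Agent.P117.AngC

open MeasureTheory
open scoped ENNReal SchwartzMap

namespace Vale.Agent.Results.P117.Equivariant

open Vale.Agent.P117

theorem result (p : ℝ≥0∞) (hp : 1 ≤ p) (δ : ℝ)
    (hδ : max (3 * |p⁻¹.toReal - 1 / 2| - 1 / 2) 0 < δ) :
    ∃ C : ℝ, ∀ (k : ℤ) (f : 𝓢(E3, ℂ)),
      (∀ (θ : ℝ) (x : E3), f (rot θ x) = Complex.exp (k * θ * Complex.I) * f x) →
        eLpNorm (BR δ f) p volume ≤
          ENNReal.ofReal (C * (1 + |(k : ℝ)|) ^ 2) * eLpNorm f p volume := by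
  obtain ⟨C, -, H⟩ := main hp hδ
  exact ⟨C, fun k f hf => H k f (schwartz_nice f) hf⟩

end Vale.Agent.Results.P117.Equivariant
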